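import Vale.Agent.P254.S.H130.Gauss
import Vale.Agent.P254.S.H130.MatP

/-!
# P254, block SP, row SP-DK: functional calculus of symmetric matrices for functions of class `C¹`

`mf F A = F(A)` (independent of the spectral decomposition), the Frobenius Lipschitz bound,
and the Daleckii-Krein derivative.
-/

open Matrix Finset Polynomial Filter Topology Asymptotics

noncomputable section

namespace Vale.Agent.P254.SP620

open Vale.Agent.P254.S130

variable {ι : Type*} [Fintype ι] [DecidableEq ι]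

/-! ### the square of the Frobenius norm -/

/-- square of the Frobenius norm -/
def fr (X : Matrix ι ι ℝ) : ℝ := ∑ i, ∑ j, X i j ^ 2

omit [DecidableEq ι] in
lemma fr_nonneg (X : Matrix ι ι ℝ) : 0 ≤ fr X :=
  Finset.sum_nonneg fun _ _ => Finset.sum_nonneg fun _ _ => sq_nonneg _

omit [DecidableEq ι] in
lemma sq_le_fr (X : Matrix ι ι ℝ) (i j : ι) : X i j ^ 2 ≤ fr X := by
  calc X i j ^ 2 ≤ ∑ j, X i j ^ 2 :=
        Finset.single_le_sum (f := fun j => X i j ^ 2) (fun _ _ => sq_nonneg _) (Finset.mem_univ j)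
    _ ≤ fr X := Finset.single_le_sum (f := fun i => ∑ j, X i j ^ 2)
        (fun _ _ => Finset.sum_nonneg fun _ _ => sq_nonneg _) (Finset.mem_univ i)

omit [DecidableEq ι] in
lemma entry_le {X : Matrix ι ι ℝ} {B : ℝ} (hB : 0 ≤ B) (h : fr X ≤ B ^ 2) (i j : ι) :
    |X i j| ≤ B := abs_le_of_sq_le_sq ((sq_le_fr X i j).trans h) hB

omit [DecidableEq ι] in
lemma fr_le {X : Matrix ι ι ℝ} {B : ℝ} (h : ∀ i j, |X i j| ≤ B) :
    fr X ≤ (Fintype.card ι * B) ^ 2 := by
  have h1 : ∀ i j, X i j ^ 2 ≤ B ^ 2 := fun i j => by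
    rw [← sq_abs]
    exact pow_le_pow_left₀ (abs_nonneg _) (h i j) 2
  calc fr X ≤ ∑ _i : ι, ∑ _j : ι, B ^ 2 :=
        Finset.sum_le_sum fun i _ => Finset.sum_le_sum fun j _ => h1 i j
    _ = (Fintype.card ι * B) ^ 2 := by
        simp only [Finset.sum_const, Finset.card_univ, nsmul_eq_mul]
        ring

omit [DecidableEq ι] in
lemma fr_eq (X : Matrix ι ι ℝ) : fr X = (Xᵀ * X).trace := by
  rw [fr, Matrix.trace, Finset.sum_comm]
  refine Finset.sum_congr rfl fun i _ => ?_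
  rw [diag_apply, mul_apply]
  refine Finset.sum_congr rfl fun j _ => ?_
  rw [transpose_apply]
  ring

lemma fr_orth {U V : Matrix ι ι ℝ} (hU : Uᵀ * U = 1) (hV : Vᵀ * V = 1) (X : Matrix ι ι ℝ) :
    fr (Uᵀ * X * V) = fr X := by
  have hU' : U * Uᵀ = 1 := mul_eq_one_comm.1 hU
  have hV' : V * Vᵀ = 1 := mul_eq_one_comm.1 hV
  rw [fr_eq, fr_eq]
  have h1 : (Uᵀ * X * V)ᵀ * (Uᵀ * X * V) = Vᵀ * (Xᵀ * X * V) := by
    rw [transpose_mul, transpose_mul, transpose_transpose]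
    calc Vᵀ * (Xᵀ * U) * (Uᵀ * X * V) = Vᵀ * Xᵀ * (U * Uᵀ) * X * V := by
          simp only [Matrix.mul_assoc]
      _ = _ := by
          rw [hU', Matrix.mul_one]
          simp only [Matrix.mul_assoc]
  rw [h1, trace_mul_comm, Matrix.mul_assoc, hV', Matrix.mul_one]

/-! ### spectral decompositions -/

/-- `A = U diag(m) Uᵀ` with `U` orthogonal -/
structure Dec (A U : Matrix ι ι ℝ) (m : ι → ℝ) : Prop where
  orth : Uᵀ * U = 1
  eq : A = U * diagonal m * Uᵀ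

lemma Dec.orth' {A U : Matrix ι ι ℝ} {m : ι → ℝ} (h : Dec A U m) : U * Uᵀ = 1 :=
  mul_eq_one_comm.1 h.orth

lemma Dec.symm {A U : Matrix ι ι ℝ} {m : ι → ℝ} (h : Dec A U m) : Aᵀ = A := by
  rw [h.eq, transpose_mul, transpose_mul, transpose_transpose, diagonal_transpose,
    Matrix.mul_assoc]

lemma exists_dec {A : Matrix ι ι ℝ} (hA : Aᵀ = A) : ∃ U m, Dec A U m := by
  have hH : A.IsHermitian := by
    rw [Matrix.IsHermitian, conjTranspose_eq_transpose_of_trivial, hA]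
  refine ⟨(hH.eigenvectorUnitary : Matrix ι ι ℝ), hH.eigenvalues, ?_, ?_⟩
  · have h := Unitary.coe_star_mul_self hH.eigenvectorUnitary
    rwa [star_eq_conjTranspose, conjTranspose_eq_transpose_of_trivial] at h
  · have h := hH.spectral_theorem
    rw [Unitary.conjStarAlgAut_apply, star_eq_conjTranspose,
      conjTranspose_eq_transpose_of_trivial] at h
    exact h

/-- the mixed eigenframe -/
lemma mixed {A B U V : Matrix ι ι ℝ} {a b : ι → ℝ} (hA : Dec A U a) (hB : Dec B V b)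
    (F : ℝ → ℝ) (i j : ι) :
    (Uᵀ * (fm F U a - fm F V b) * V) i j = (F (a i) - F (b j)) * (Uᵀ * V) i j := by
  have h1 : Uᵀ * fm F U a * V = diagonal (fun i => F (a i)) * (Uᵀ * V) := by
    unfold fm
    calc Uᵀ * (U * diagonal (fun i => F (a i)) * Uᵀ) * V
        = (Uᵀ * U) * diagonal (fun i => F (a i)) * (Uᵀ * V) := by simp only [Matrix.mul_assoc]
      _ = _ := by rw [hA.orth, Matrix.one_mul]
  have h2 : Uᵀ * fm F V b * V = (Uᵀ * V) * diagonal (fun i => F (b i)) := by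
    unfold fm
    calc Uᵀ * (V * diagonal (fun i => F (b i)) * Vᵀ) * V
        = (Uᵀ * V) * diagonal (fun i => F (b i)) * (Vᵀ * V) := by simp only [Matrix.mul_assoc]
      _ = _ := by rw [hB.orth, Matrix.mul_one]
  rw [Matrix.mul_sub, Matrix.sub_mul, h1, h2, Matrix.sub_apply, diagonal_mul, mul_diagonal]
  ring

lemma mixed_id {A B U V : Matrix ι ι ℝ} {a b : ι → ℝ} (hA : Dec A U a) (hB : Dec B V b)
    (i j : ι) : (Uᵀ * (A - B) * V) i j = (a i - b j) * (Uᵀ * V) i j := by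
  have h := mixed hA hB (fun x => x) i j
  have e1 : fm (fun x => x) U a = A := hA.eq.symm
  have e2 : fm (fun x => x) V b = B := hB.eq.symm
  rwa [e1, e2] at h

/-- Frobenius Lipschitz bound -/
theorem fm_lip {A B U V : Matrix ι ι ℝ} {a b : ι → ℝ} (hA : Dec A U a) (hB : Dec B V b)
    {F : ℝ → ℝ} {L : ℝ} (hF : ∀ i j, |F (a i) - F (b j)| ≤ L * |a i - b j|) :
    fr (fm F U a - fm F V b) ≤ L ^ 2 * fr (A - B) := by
  rw [← fr_orth hA.orth hB.orth (fm F U a - fm F V b), ← fr_orth hA.orth hB.orth (A - B),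
    fr, fr, Finset.mul_sum]
  refine Finset.sum_le_sum fun i _ => ?_
  rw [Finset.mul_sum]
  refine Finset.sum_le_sum fun j _ => ?_
  rw [mixed hA hB, mixed_id hA hB, mul_pow, mul_pow, ← mul_assoc]
  refine mul_le_mul_of_nonneg_right ?_ (sq_nonneg _)
  rw [← sq_abs (F (a i) - F (b j)), ← sq_abs (a i - b j), ← mul_pow]
  exact pow_le_pow_left₀ (abs_nonneg _) (hF i j) 2

/-- independence of the decomposition -/
theorem fm_indep {A U V : Matrix ι ι ℝ} {a b : ι → ℝ} (hA : Dec A U a) (hB : Dec A V b)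
    (F : ℝ → ℝ) : fm F U a = fm F V b := by
  have h0 : fr (fm F U a - fm F V b) = 0 := by
    rw [← fr_orth hA.orth hB.orth (fm F U a - fm F V b), fr]
    refine Finset.sum_eq_zero fun i _ => Finset.sum_eq_zero fun j _ => ?_
    rw [mixed hA hB]
    have h1 := mixed_id hA hB i j
    rw [sub_self, Matrix.mul_zero, Matrix.zero_mul, Matrix.zero_apply] at h1
    rcases mul_eq_zero.1 h1.symm with h | h
    · rw [sub_eq_zero.1 h, sub_self, zero_mul, sq, zero_mul]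
    · rw [h, mul_zero, sq, zero_mul]
  ext i j
  have h1 := sq_le_fr (fm F U a - fm F V b) i j
  rw [h0] at h1
  have h2 : (fm F U a - fm F V b) i j = 0 := by
    have := le_antisymm h1 (sq_nonneg _)
    exact pow_eq_zero_iff (two_ne_zero) |>.1 this
  rw [Matrix.sub_apply] at h2
  linarith

open Classical in
/-- `F(A)` for a symmetric matrix `A` (junk value `0` if `A` is not symmetric) -/
def mf (F : ℝ → ℝ) (A : Matrix ι ι ℝ) : Matrix ι ι ℝ :=
  if h : ∃ q : Matrix ι ι ℝ × (ι → ℝ), Dec A q.1 q.2 then fm F h.choose.1 h.choose.2 else 0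

theorem Dec.mf {A U : Matrix ι ι ℝ} {m : ι → ℝ} (h : Dec A U m) (F : ℝ → ℝ) :
    mf F A = fm F U m := by
  have h0 : ∃ q : Matrix ι ι ℝ × (ι → ℝ), Dec A q.1 q.2 := ⟨(U, m), h⟩
  unfold SP620.mf
  rw [dif_pos h0]
  exact fm_indep h0.choose_spec h F

theorem Dec.mf_eq {A U : Matrix ι ι ℝ} {m : ι → ℝ} (h : Dec A U m) (F : ℝ → ℝ) :
    SP620.mf F A = U * diagonal (fun i => F (m i)) * Uᵀ := h.mf F

theorem Dec.dec_mf {A U : Matrix ι ι ℝ} {m : ι → ℝ} (h : Dec A U m) (F : ℝ → ℝ) :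
    Dec (SP620.mf F A) U (fun i => F (m i)) := ⟨h.orth, h.mf F⟩

theorem Dec.mf_comp {A U : Matrix ι ι ℝ} {m : ι → ℝ} (h : Dec A U m) (F G : ℝ → ℝ) :
    SP620.mf F (SP620.mf G A) = SP620.mf (fun x => F (G x)) A := by
  rw [(h.dec_mf G).mf F, h.mf]
  rfl

theorem Dec.mf_mul {A U : Matrix ι ι ℝ} {m : ι → ℝ} (h : Dec A U m) (F G : ℝ → ℝ) :
    SP620.mf F A * SP620.mf G A = SP620.mf (fun x => F x * G x) A := by
  rw [h.mf, h.mf, h.mf]
  unfold fm
  calc U * diagonal (fun i => F (m i)) * Uᵀ * (U * diagonal (fun i => G (m i)) * Uᵀ)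
      = U * diagonal (fun i => F (m i)) * (Uᵀ * U) * diagonal (fun i => G (m i)) * Uᵀ := by
        simp only [Matrix.mul_assoc]
    _ = _ := by
        rw [h.orth, Matrix.mul_one, Matrix.mul_assoc U, diagonal_mul_diagonal]

theorem Dec.mf_id {A U : Matrix ι ι ℝ} {m : ι → ℝ} (h : Dec A U m) :
    SP620.mf (fun x => x) A = A := by
  rw [h.mf]
  exact h.eq.symm

theorem Dec.mf_add {A U : Matrix ι ι ℝ} {m : ι → ℝ} (h : Dec A U m) (F G : ℝ → ℝ) :
    SP620.mf (fun x => F x + G x) A = SP620.mf F A + SP620.mf G A := by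
  rw [h.mf, h.mf, h.mf]
  unfold fm
  rw [← Matrix.add_mul, ← Matrix.mul_add, diagonal_add]

theorem Dec.mf_sub {A U : Matrix ι ι ℝ} {m : ι → ℝ} (h : Dec A U m) (F G : ℝ → ℝ) :
    SP620.mf (fun x => F x - G x) A = SP620.mf F A - SP620.mf G A := by
  rw [h.mf, h.mf, h.mf]
  unfold fm
  rw [← Matrix.sub_mul, ← Matrix.mul_sub, diagonal_sub]

theorem Dec.mf_smul {A U : Matrix ι ι ℝ} {m : ι → ℝ} (h : Dec A U m) (c : ℝ) (F : ℝ → ℝ) :
    SP620.mf (fun x => c * F x) A = c • SP620.mf F A := by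
  rw [h.mf, h.mf]
  unfold fm
  have e : (diagonal fun i => c * F (m i)) = c • diagonal fun i => F (m i) := by
    rw [← diagonal_smul]
    rfl
  rw [e, Matrix.mul_smul, Matrix.smul_mul]

theorem Dec.mf_const {A U : Matrix ι ι ℝ} {m : ι → ℝ} (h : Dec A U m) (c : ℝ) :
    SP620.mf (fun _ => c) A = c • (1 : Matrix ι ι ℝ) := by
  rw [h.mf]
  unfold fm
  have e : (diagonal fun _ : ι => c) = c • (1 : Matrix ι ι ℝ) := by
    rw [smul_one_eq_diagonal]
  rw [e, Matrix.mul_smul, Matrix.smul_mul, Matrix.mul_one, h.orth']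

theorem Dec.mf_symm {A U : Matrix ι ι ℝ} {m : ι → ℝ} (h : Dec A U m) (F : ℝ → ℝ) :
    (SP620.mf F A)ᵀ = SP620.mf F A := (h.dec_mf F).symm

theorem Dec.mf_trace {A U : Matrix ι ι ℝ} {m : ι → ℝ} (h : Dec A U m) (F : ℝ → ℝ) :
    (SP620.mf F A).trace = ∑ i, F (m i) := by
  rw [h.mf_eq, trace_mul_comm, ← Matrix.mul_assoc, h.orth, Matrix.one_mul, trace_diagonal]

theorem Dec.mf_poly {A U : Matrix ι ι ℝ} {m : ι → ℝ} (h : Dec A U m) (p : ℝ[X]) :
    SP620.mf (fun x => p.eval x) A = aeval A p := by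
  rw [h.mf]
  exact (aeval_diag h.orth h.eq p).symm

/-- entries are bounded by `sup |F|` -/
theorem Dec.mf_le {A U : Matrix ι ι ℝ} {m : ι → ℝ} (h : Dec A U m) {F : ℝ → ℝ} {B : ℝ}
    (hB : ∀ i, |F (m i)| ≤ B) (hB0 : 0 ≤ B) (i j : ι) : |SP620.mf F A i j| ≤ B := by
  rw [h.mf]
  exact conj_le h.orth hB hB0 i j

/-- Frobenius Lipschitz bound -/
theorem mf_lip {A B U V : Matrix ι ι ℝ} {a b : ι → ℝ} (hA : Dec A U a) (hB : Dec B V b)
    {F : ℝ → ℝ} {L : ℝ} (hF : ∀ i j, |F (a i) - F (b j)| ≤ L * |a i - b j|) :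
    fr (mf F A - mf F B) ≤ L ^ 2 * fr (A - B) := by
  rw [hA.mf, hB.mf]
  exact fm_lip hA hB hF

/-! ### the Daleckii-Krein derivative -/

/-- `DK F F' U m X = U (F[m_i,m_j] ∘ (Uᵀ X U)) Uᵀ` -/
def DK (F F' : ℝ → ℝ) (U : Matrix ι ι ℝ) (m : ι → ℝ) (X : Matrix ι ι ℝ) : Matrix ι ι ℝ :=
  U * (of fun i j => dd F F' (m i) (m j) * (Uᵀ * X * U) i j) * Uᵀ

lemma DK_frame {U : Matrix ι ι ℝ} (hU : Uᵀ * U = 1) (F F' : ℝ → ℝ) (m : ι → ℝ)
    (X : Matrix ι ι ℝ) (i j : ι) :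
    (Uᵀ * DK F F' U m X * U) i j = dd F F' (m i) (m j) * (Uᵀ * X * U) i j := by
  unfold DK
  set Y : Matrix ι ι ℝ := of fun i j => dd F F' (m i) (m j) * (Uᵀ * X * U) i j with hY
  have h1 : Uᵀ * (U * Y * Uᵀ) * U = Y := by
    calc Uᵀ * (U * Y * Uᵀ) * U = (Uᵀ * U) * Y * (Uᵀ * U) := by simp only [Matrix.mul_assoc]
      _ = _ := by rw [hU, Matrix.one_mul, Matrix.mul_one]
  rw [h1, hY, of_apply]

lemma fr_DK {U : Matrix ι ι ℝ} (hU : Uᵀ * U = 1) (F F' : ℝ → ℝ) (m : ι → ℝ)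
    (X : Matrix ι ι ℝ) :
    fr (DK F F' U m X) = ∑ i, ∑ j, (dd F F' (m i) (m j) * (Uᵀ * X * U) i j) ^ 2 := by
  rw [← fr_orth hU hU, fr]
  refine Finset.sum_congr rfl fun i _ => Finset.sum_congr rfl fun j _ => ?_
  rw [DK_frame hU]

lemma fr_DK_le {U : Matrix ι ι ℝ} (hU : Uᵀ * U = 1) {F F' : ℝ → ℝ} {m : ι → ℝ} {B : ℝ}
    (hB : ∀ i j, |dd F F' (m i) (m j)| ≤ B) (X : Matrix ι ι ℝ) :
    fr (DK F F' U m X) ≤ B ^ 2 * fr X := by
  rw [fr_DK hU, ← fr_orth hU hU X, fr, Finset.mul_sum]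
  refine Finset.sum_le_sum fun i _ => ?_
  rw [Finset.mul_sum]
  refine Finset.sum_le_sum fun j _ => ?_
  rw [mul_pow]
  refine mul_le_mul_of_nonneg_right ?_ (sq_nonneg _)
  rw [← sq_abs (dd F F' (m i) (m j))]
  exact pow_le_pow_left₀ (abs_nonneg _) (hB i j) 2

lemma Dp_eq_DK {A U : Matrix ι ι ℝ} {m : ι → ℝ} (h : Dec A U m) (p : ℝ[X])
    (X : Matrix ι ι ℝ) :
    Dp p A X = DK (fun t => p.eval t) (fun t => (derivative p).eval t) U m X := by
  have h1 : Uᵀ * Dp p A X * U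
      = of fun i j => dd (fun t => p.eval t) (fun t => (derivative p).eval t) (m i) (m j)
        * (Uᵀ * X * U) i j := by
    ext i j
    rw [Dp_diag h.orth h.eq, of_apply]
  unfold DK
  rw [← h1]
  calc Dp p A X = (U * Uᵀ) * Dp p A X * (U * Uᵀ) := by
        rw [h.orth', Matrix.one_mul, Matrix.mul_one]
    _ = _ := by simp only [Matrix.mul_assoc]

omit [DecidableEq ι] in
lemma DK_sub (F F' G G' : ℝ → ℝ) (U : Matrix ι ι ℝ) (m : ι → ℝ) (X : Matrix ι ι ℝ) :
    DK F F' U m X - DK G G' U m X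
      = U * (of fun i j => (dd F F' (m i) (m j) - dd G G' (m i) (m j)) * (Uᵀ * X * U) i j) * Uᵀ := by
  unfold DK
  rw [← Matrix.sub_mul, ← Matrix.mul_sub]
  congr 2
  ext i j
  simp only [Matrix.sub_apply, of_apply]
  ring

lemma fr_DK_sub_le {U : Matrix ι ι ℝ} (hU : Uᵀ * U = 1) {F F' G G' : ℝ → ℝ} {m : ι → ℝ} {B : ℝ}
    (hB : ∀ i j, |dd F F' (m i) (m j) - dd G G' (m i) (m j)| ≤ B) (X : Matrix ι ι ℝ) :
    fr (DK F F' U m X - DK G G' U m X) ≤ B ^ 2 * fr X := by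
  rw [DK_sub, ← fr_orth hU hU, ← fr_orth hU hU X]
  set Y : Matrix ι ι ℝ :=
    of fun i j => (dd F F' (m i) (m j) - dd G G' (m i) (m j)) * (Uᵀ * X * U) i j with hY
  have h1 : Uᵀ * (U * Y * Uᵀ) * U = Y := by
    calc Uᵀ * (U * Y * Uᵀ) * U = (Uᵀ * U) * Y * (Uᵀ * U) := by simp only [Matrix.mul_assoc]
      _ = _ := by rw [hU, Matrix.one_mul, Matrix.mul_one]
  rw [h1, fr, fr, Finset.mul_sum]
  refine Finset.sum_le_sum fun i _ => ?_
  rw [Finset.mul_sum]
  refine Finset.sum_le_sum fun j _ => ?_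
  rw [hY, of_apply, mul_pow]
  refine mul_le_mul_of_nonneg_right ?_ (sq_nonneg _)
  rw [← sq_abs (dd F F' (m i) (m j) - dd G G' (m i) (m j))]
  exact pow_le_pow_left₀ (abs_nonneg _) (hB i j) 2

omit [DecidableEq ι] in
/-- the entries of `U Y Uᵀ` as finite sums -/
lemma conj_entry (U Y : Matrix ι ι ℝ) (i j : ι) :
    (U * Y * Uᵀ) i j = ∑ k, ∑ l, U i k * Y k l * U j l := by
  rw [Matrix.mul_apply]
  simp only [Matrix.mul_apply, transpose_apply, Finset.sum_mul]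
  rw [Finset.sum_comm]

omit [DecidableEq ι] in
lemma conjT_entry (U X : Matrix ι ι ℝ) (k l : ι) :
    (Uᵀ * X * U) k l = ∑ a, ∑ b, U a k * X a b * U b l := by
  rw [Matrix.mul_apply]
  simp only [Matrix.mul_apply, transpose_apply, Finset.sum_mul]
  rw [Finset.sum_comm]

section deriv

variable {V : Type*} [NormedAddCommGroup V] [NormedSpace ℝ V]
  {A : V → Matrix ι ι ℝ} {L : ι → ι → V →L[ℝ] ℝ} {z : V}

/-- the Daleckii-Krein derivative as a continuous linear map -/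
def DKL (F F' : ℝ → ℝ) (U : Matrix ι ι ℝ) (m : ι → ℝ) (L : ι → ι → V →L[ℝ] ℝ) (i j : ι) :
    V →L[ℝ] ℝ :=
  ∑ k, ∑ l, (U i k * U j l * dd F F' (m k) (m l)) • ∑ a, ∑ b, (U a k * U b l) • L a b

omit [DecidableEq ι] in
lemma DKL_apply (F F' : ℝ → ℝ) (U : Matrix ι ι ℝ) (m : ι → ℝ) (L : ι → ι → V →L[ℝ] ℝ)
    (i j : ι) (v : V) :
    DKL F F' U m L i j v = DK F F' U m (of fun i j => L i j v) i j := by
  unfold DKL DK
  rw [conj_entry]
  simp only [_root_.sum_apply, _root_.smul_apply, smul_eq_mul]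
  refine Finset.sum_congr rfl fun k _ => Finset.sum_congr rfl fun l _ => ?_
  rw [of_apply, conjT_entry]
  simp only [of_apply]
  rw [Finset.mul_sum]
  simp only [Finset.mul_sum, Finset.sum_mul]
  refine Finset.sum_congr rfl fun a _ => Finset.sum_congr rfl fun b _ => ?_
  ring

/-- **Daleckii-Krein**: `y ↦ F(A y)` is differentiable at `z` if `A` is, `F` of class `C¹` on an
interval `[c, C]` that contains the spectra near `z` -/
theorem hasFD_mf {c C : ℝ} (hcC : c ≤ C) {F F' : ℝ → ℝ}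
    (hF : ∀ x ∈ Set.Icc c C, HasDerivWithinAt F (F' x) (Set.Icc c C) x)
    (hF' : ContinuousOn F' (Set.Icc c C))
    (hsp : ∀ᶠ y in 𝓝 z, ∃ U m, Dec (A y) U m ∧ ∀ i, m i ∈ Set.Icc c C)
    {U : Matrix ι ι ℝ} {m : ι → ℝ} (hU : Dec (A z) U m) (hm : ∀ i, m i ∈ Set.Icc c C)
    (hA : ∀ i j, HasFDerivAt (fun y => A y i j) (L i j) z) (i j : ι) :
    HasFDerivAt (fun y => mf F (A y) i j) (DKL F F' U m L i j) z := by
  -- Lipschitz bound of `A` at `z`
  obtain ⟨K, hK0, hK⟩ : ∃ K : ℝ, 0 < K ∧ (∀ᶠ y in 𝓝 z, ∀ i j, |A y i j - A z i j| ≤ K * ‖y - z‖) ∧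
      ∀ v, ∀ i j, |L i j v| ≤ K * ‖v‖ := by
    have h1 : ∀ i j, ∃ K : ℝ, 0 ≤ K ∧ ∀ᶠ y in 𝓝 z, |A y i j - A z i j| ≤ K * ‖y - z‖ := by
      intro i j
      obtain ⟨K, hK0, hK⟩ := (hA i j).isBigO_sub.exists_nonneg
      refine ⟨K, hK0, ?_⟩
      filter_upwards [hK.bound] with y hy
      simpa [Real.norm_eq_abs] using hy
    choose K1 hK1 hK2 using h1
    refine ⟨1 + ∑ i, ∑ j, (K1 i j + ‖L i j‖), ?_, ?_, ?_⟩
    · have : 0 ≤ ∑ i, ∑ j, (K1 i j + ‖L i j‖) :=
        Finset.sum_nonneg fun i _ => Finset.sum_nonneg fun j _ => add_nonneg (hK1 i j) (norm_nonneg _)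
      linarith
    · have h3 : ∀ᶠ y in 𝓝 z, ∀ i j, |A y i j - A z i j| ≤ K1 i j * ‖y - z‖ := by
        rw [Filter.eventually_all]
        intro i
        rw [Filter.eventually_all]
        exact fun j => hK2 i j
      filter_upwards [h3] with y hy i j
      refine (hy i j).trans (mul_le_mul_of_nonneg_right ?_ (norm_nonneg _))
      have h4 : K1 i j + ‖L i j‖ ≤ ∑ i, ∑ j, (K1 i j + ‖L i j‖) :=
        (Finset.single_le_sum (f := fun j => K1 i j + ‖L i j‖)
          (fun j _ => add_nonneg (hK1 i j) (norm_nonneg _)) (Finset.mem_univ j)).trans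
        (Finset.single_le_sum (f := fun i => ∑ j, (K1 i j + ‖L i j‖))
          (fun i _ => Finset.sum_nonneg fun j _ => add_nonneg (hK1 i j) (norm_nonneg _))
          (Finset.mem_univ i))
      linarith [norm_nonneg (L i j)]
    · intro v i j
      refine ((L i j).le_opNorm v).trans (mul_le_mul_of_nonneg_right ?_ (norm_nonneg _))
      have h4 : K1 i j + ‖L i j‖ ≤ ∑ i, ∑ j, (K1 i j + ‖L i j‖) :=
        (Finset.single_le_sum (f := fun j => K1 i j + ‖L i j‖)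
          (fun j _ => add_nonneg (hK1 i j) (norm_nonneg _)) (Finset.mem_univ j)).trans
        (Finset.single_le_sum (f := fun i => ∑ j, (K1 i j + ‖L i j‖))
          (fun i _ => Finset.sum_nonneg fun j _ => add_nonneg (hK1 i j) (norm_nonneg _))
          (Finset.mem_univ i))
      linarith [hK1 i j]
  obtain ⟨hKy, hKv⟩ := hK
  rw [hasFDerivAt_iff_isLittleO, Asymptotics.isLittleO_iff]
  intro ε hε
  set N : ℝ := (Fintype.card ι : ℝ) with hN
  have hN0 : 0 ≤ N := Nat.cast_nonneg _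
  set δ : ℝ := ε / (3 * (N * K + 1)) with hδ
  have hNK : 0 < N * K + 1 := by positivity
  have hδ0 : 0 < δ := by positivity
  obtain ⟨p, -, hp⟩ := exists_poly hcC hF hF' hδ0
  obtain ⟨Lp, hLp, hLpv⟩ := hasFD_aeval hA p i j
  rw [hasFDerivAt_iff_isLittleO, Asymptotics.isLittleO_iff] at hLp
  have hP : ∀ x ∈ Set.Icc c C, HasDerivWithinAt (fun t => p.eval t) ((derivative p).eval x)
      (Set.Icc c C) x := fun x _ => (p.hasDerivAt x).hasDerivWithinAt
  filter_upwards [hLp (c := ε / 3) (by positivity), hKy, hsp] with y hy1 hy2 hy3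
  obtain ⟨U', m', hU', hm'⟩ := hy3
  -- the difference of the functions
  have hd : ∀ x ∈ Set.Icc c C, ∀ x' ∈ Set.Icc c C,
      |(F x - p.eval x) - (F x' - p.eval x')| ≤ δ * |x - x'| := by
    intro x hx x' hx'
    have h1 : ∀ t ∈ Set.Icc c C, HasDerivWithinAt (fun t => F t - p.eval t)
        (F' t - (derivative p).eval t) (Set.Icc c C) t := fun t ht => (hF t ht).sub (hP t ht)
    have h2 := (convex_Icc c C).norm_image_sub_le_of_norm_hasDerivWithin_le h1
      (C := δ) (fun t ht => by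
        rw [Real.norm_eq_abs, abs_sub_comm]
        exact hp t ht) hx' hx
    simpa [Real.norm_eq_abs] using h2
  have hfrA : fr (A y - A z) ≤ (N * (K * ‖y - z‖)) ^ 2 := fr_le fun i j => by
    rw [Matrix.sub_apply]
    exact hy2 i j
  have hfrL : fr (of fun i j => L i j (y - z)) ≤ (N * (K * ‖y - z‖)) ^ 2 := fr_le fun i j => by
    rw [of_apply]
    exact hKv _ i j
  have hnn : 0 ≤ N * (K * ‖y - z‖) := by positivity
  -- part 1
  have e1 : |(mf F (A y) - mf F (A z)) i j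
      - ((aeval (A y) p : Matrix ι ι ℝ) - aeval (A z) p) i j| ≤ δ * (N * (K * ‖y - z‖)) := by
    have h1 : fr (mf (fun x => F x - p.eval x) (A y) - mf (fun x => F x - p.eval x) (A z))
        ≤ δ ^ 2 * fr (A y - A z) :=
      mf_lip hU' hU fun i j => hd _ (hm' i) _ (hm j)
    have h2 : fr (mf (fun x => F x - p.eval x) (A y) - mf (fun x => F x - p.eval x) (A z))
        ≤ (δ * (N * (K * ‖y - z‖))) ^ 2 := by
      rw [mul_pow]
      exact h1.trans (mul_le_mul_of_nonneg_left hfrA (sq_nonneg _))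
    have h3 := entry_le (by positivity) h2 i j
    rw [hU'.mf_sub, hU.mf_sub, hU'.mf_poly, hU.mf_poly] at h3
    have h4 : (mf F (A y) - mf F (A z)) i j
        - ((aeval (A y) p : Matrix ι ι ℝ) - aeval (A z) p) i j
        = (mf F (A y) - (aeval (A y) p : Matrix ι ι ℝ)
          - (mf F (A z) - (aeval (A z) p : Matrix ι ι ℝ))) i j := by
      simp only [Matrix.sub_apply]
      ring
    rw [h4]
    exact h3
  -- part 2
  have e2 : |DKL F F' U m L i j (y - z) - Lp (y - z)| ≤ δ * (N * (K * ‖y - z‖)) := by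
    rw [DKL_apply, hLpv, Dp_eq_DK hU]
    have h1 : ∀ i j, |dd F F' (m i) (m j)
        - dd (fun t => p.eval t) (fun t => (derivative p).eval t) (m i) (m j)| ≤ δ := by
      intro i j
      rw [abs_sub_comm]
      exact dd_close hF hP hp (hm i) (hm j)
    have h2 := fr_DK_sub_le hU.orth h1 (of fun i j => L i j (y - z))
    have h3 : fr (DK F F' U m (of fun i j => L i j (y - z))
        - DK (fun t => p.eval t) (fun t => (derivative p).eval t) U m
          (of fun i j => L i j (y - z))) ≤ (δ * (N * (K * ‖y - z‖))) ^ 2 := by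
      rw [mul_pow]
      exact h2.trans (mul_le_mul_of_nonneg_left hfrL (sq_nonneg _))
    have h4 := entry_le (by positivity) h3 i j
    rwa [Matrix.sub_apply] at h4
  -- conclusion
  rw [Real.norm_eq_abs] at hy1 ⊢
  have hδN : δ * (N * (K * ‖y - z‖)) ≤ ε / 3 * ‖y - z‖ := by
    have h1 : δ * (N * K) ≤ ε / 3 := by
      rw [hδ, div_mul_eq_mul_div, div_le_div_iff₀ (by positivity) (by norm_num)]
      nlinarith [mul_nonneg hN0 hK0.le]
    calc δ * (N * (K * ‖y - z‖)) = δ * (N * K) * ‖y - z‖ := by ring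
      _ ≤ _ := mul_le_mul_of_nonneg_right h1 (norm_nonneg _)
  have e3 : mf F (A y) i j - mf F (A z) i j - DKL F F' U m L i j (y - z)
      = ((mf F (A y) - mf F (A z)) i j - ((aeval (A y) p : Matrix ι ι ℝ) - aeval (A z) p) i j)
        - (DKL F F' U m L i j (y - z) - Lp (y - z))
        + ((aeval (A y) p : Matrix ι ι ℝ) i j - (aeval (A z) p : Matrix ι ι ℝ) i j
          - Lp (y - z)) := by
    simp only [Matrix.sub_apply]
    ring
  rw [e3]
  calc _ ≤ |(mf F (A y) - mf F (A z)) i j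
        - ((aeval (A y) p : Matrix ι ι ℝ) - aeval (A z) p) i j|
        + |DKL F F' U m L i j (y - z) - Lp (y - z)|
        + |(aeval (A y) p : Matrix ι ι ℝ) i j - (aeval (A z) p : Matrix ι ι ℝ) i j
          - Lp (y - z)| :=
      (abs_add_le _ _).trans (add_le_add (abs_sub _ _) le_rfl)
    _ ≤ ε / 3 * ‖y - z‖ + ε / 3 * ‖y - z‖ + ε / 3 * ‖y - z‖ :=
      add_le_add (add_le_add (e1.trans hδN) (e2.trans hδN)) hy1
    _ = ε * ‖y - z‖ := by ring

end deriv

end Vale.Agent.P254.SP620
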