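import Vale.Agent.P254.SP.IfaceA
import Vale.Agent.P254.SP.H620.DK
import Vale.Agent.P254.S.H130.Main

/-!
# P254, block SP, row SP-DK: functions of the matrix field `G = (t')⁻¹(D²φ)`

For `f` of class `C¹` on `ℝ` the field `f(G) = fc U s f` is bounded and Lipschitz, and at every point
of differentiability of `G` (almost every point) `∂_k f(G)` is, in the frame of `G`, the
multiplication of `uu U s k` by the divided differences of `f`.
-/

open MeasureTheory Matrix Finset Polynomial Filter Topology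

noncomputable section

namespace Vale.Agent.P254.SP620

open Vale.Agent.P254.S130 Vale.Agent.P227.M Vale.Agent.P254.S
open Vale.Agent.P254.SP (F1 Fr GG pdM uu wσ)

/-! ### general matrix fields -/

section general

variable {n : ℕ} {c C : ℝ} {A : E n → Matrix (Fin n) (Fin n) ℝ}

/-- the spectrum of the field `A` lies in `[c, C]` -/
def SpIn (c C : ℝ) (A : E n → Matrix (Fin n) (Fin n) ℝ) : Prop :=
  ∀ z, ∃ U m, Dec (A z) U m ∧ ∀ i, m i ∈ Set.Icc c C

/-- `F(A)` is bounded and Lipschitz -/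
theorem mbl_mf (_hcC : c ≤ C) (hA : MBL A) (hs : SpIn c C A) {F F' : ℝ → ℝ}
    (hF : ∀ x ∈ Set.Icc c C, HasDerivWithinAt F (F' x) (Set.Icc c C) x)
    (hF' : ContinuousOn F' (Set.Icc c C)) : MBL fun z => mf F (A z) := by
  obtain ⟨B, hB⟩ := isCompact_Icc.exists_bound_of_continuousOn
    (f := F) (s := Set.Icc c C) fun x hx => (hF x hx).continuousWithinAt
  obtain ⟨B', hB'⟩ := isCompact_Icc.exists_bound_of_continuousOn hF'
  have hBn : 0 ≤ max B 0 := le_max_right _ _
  have hB'n : 0 ≤ max B' 0 := le_max_right _ _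
  have hlip : ∀ x ∈ Set.Icc c C, ∀ y ∈ Set.Icc c C, |F x - F y| ≤ max B' 0 * |x - y| := by
    intro x hx y hy
    have h2 := (convex_Icc c C).norm_image_sub_le_of_norm_hasDerivWithin_le hF
      (C := max B' 0) (fun t ht => (hB' t ht).trans (le_max_left _ _)) hy hx
    simpa [Real.norm_eq_abs] using h2
  choose KA hKA using fun i j => (hA i j).2
  set K : ℝ := ∑ i, ∑ j, |KA i j| with hKdef
  have hK : ∀ i j x y, |A x i j - A y i j| ≤ K * ‖x - y‖ := by
    intro i j x y
    refine (hKA i j x y).trans (mul_le_mul_of_nonneg_right ?_ (norm_nonneg _))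
    calc KA i j ≤ |KA i j| := le_abs_self _
      _ ≤ ∑ j, |KA i j| := Finset.single_le_sum (f := fun j => |KA i j|)
          (fun _ _ => abs_nonneg _) (Finset.mem_univ j)
      _ ≤ K := Finset.single_le_sum (f := fun i => ∑ j, |KA i j|)
          (fun _ _ => Finset.sum_nonneg fun _ _ => abs_nonneg _) (Finset.mem_univ i)
  have hK0 : 0 ≤ K := Finset.sum_nonneg fun _ _ => Finset.sum_nonneg fun _ _ => abs_nonneg _
  intro i j
  refine ⟨⟨max B 0, fun z => ?_⟩, max B' 0 * (n * K), fun x y => ?_⟩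
  · obtain ⟨U, m, h, hm⟩ := hs z
    exact h.mf_le (fun k => (hB _ (hm k)).trans (le_max_left _ _)) hBn i j
  · obtain ⟨U, m, h, hm⟩ := hs x
    obtain ⟨U', m', h', hm'⟩ := hs y
    have h1 := mf_lip h h' (F := F) (L := max B' 0) fun i j => hlip _ (hm i) _ (hm' j)
    have h2 : fr (A x - A y) ≤ ((n : ℝ) * (K * ‖x - y‖)) ^ 2 := by
      have := fr_le (X := A x - A y) (B := K * ‖x - y‖) fun i j => by
        rw [Matrix.sub_apply]
        exact hK i j x y
      simpa using this
    have h3 : fr (mf F (A x) - mf F (A y)) ≤ (max B' 0 * ((n : ℝ) * (K * ‖x - y‖))) ^ 2 := by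
      rw [mul_pow]
      exact h1.trans (mul_le_mul_of_nonneg_left h2 (sq_nonneg _))
    have h4 := entry_le (by positivity) h3 i j
    rw [Matrix.sub_apply] at h4
    calc _ ≤ _ := h4
      _ = _ := by ring

/-- entries of `F(A)` are differentiable where `A` is -/
theorem hasFD_field (hcC : c ≤ C) (hs : SpIn c C A) {F F' : ℝ → ℝ}
    (hF : ∀ x ∈ Set.Icc c C, HasDerivWithinAt F (F' x) (Set.Icc c C) x)
    (hF' : ContinuousOn F' (Set.Icc c C)) {z : E n}
    (hz : ∀ i j, DifferentiableAt ℝ (fun y => A y i j) z)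
    {U : Matrix (Fin n) (Fin n) ℝ} {m : Fin n → ℝ} (h : Dec (A z) U m)
    (hm : ∀ i, m i ∈ Set.Icc c C) (i j : Fin n) :
    HasFDerivAt (fun y => mf F (A y) i j)
      (DKL F F' U m (fun i j => fderiv ℝ (fun y => A y i j) z) i j) z :=
  hasFD_mf hcC hF hF' (Eventually.of_forall hs) h hm (fun i j => (hz i j).hasFDerivAt) i j

/-- `∂_k F(A)` in terms of `∂_k A` -/
theorem pdM_mf (hcC : c ≤ C) (hs : SpIn c C A) {F F' : ℝ → ℝ}
    (hF : ∀ x ∈ Set.Icc c C, HasDerivWithinAt F (F' x) (Set.Icc c C) x)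
    (hF' : ContinuousOn F' (Set.Icc c C)) {z : E n}
    (hz : ∀ i j, DifferentiableAt ℝ (fun y => A y i j) z)
    {U : Matrix (Fin n) (Fin n) ℝ} {m : Fin n → ℝ} (h : Dec (A z) U m)
    (hm : ∀ i, m i ∈ Set.Icc c C) (k : Fin n) :
    pdM k (fun y => mf F (A y)) z = DK F F' U m (pdM k A z) := by
  ext i j
  show fderiv ℝ (fun y => mf F (A y) i j) z (ei k) = _
  rw [(hasFD_field hcC hs hF hF' hz h hm i j).fderiv, DKL_apply]
  rfl

/-- product rule -/
theorem pdM_mul {A B : E n → Matrix (Fin n) (Fin n) ℝ} {z : E n}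
    (hA : ∀ i j, DifferentiableAt ℝ (fun y => A y i j) z)
    (hB : ∀ i j, DifferentiableAt ℝ (fun y => B y i j) z) (k : Fin n) :
    pdM k (fun y => A y * B y) z = pdM k A z * B z + A z * pdM k B z := by
  ext i j
  show fderiv ℝ (fun y => (A y * B y) i j) z (ei k) = _
  have h1 : HasFDerivAt (fun y => (A y * B y) i j)
      (∑ l, (A z i l • fderiv ℝ (fun y => B y l j) z
        + B z l j • fderiv ℝ (fun y => A y i l) z)) z := by
    simp only [Matrix.mul_apply]
    exact HasFDerivAt.fun_sum fun l _ => (hA i l).hasFDerivAt.mul (hB l j).hasFDerivAt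
  rw [h1.fderiv, Matrix.add_apply, Matrix.mul_apply, Matrix.mul_apply, ← Finset.sum_add_distrib]
  simp only [_root_.sum_apply, _root_.add_apply, _root_.smul_apply, smul_eq_mul]
  refine Finset.sum_congr rfl fun l _ => ?_
  show A z i l * pd k (fun y => B y l j) z + B z l j * pd k (fun y => A y i l) z
    = pd k (fun y => A y i l) z * B z l j + A z i l * pd k (fun y => B y l j) z
  ring

theorem diff_mul {A B : E n → Matrix (Fin n) (Fin n) ℝ} {z : E n}
    (hA : ∀ i j, DifferentiableAt ℝ (fun y => A y i j) z)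
    (hB : ∀ i j, DifferentiableAt ℝ (fun y => B y i j) z) (i j : Fin n) :
    DifferentiableAt ℝ (fun y => (A y * B y) i j) z := by
  simp only [Matrix.mul_apply]
  exact DifferentiableAt.fun_sum fun l _ => (hA i l).mul (hB l j)

theorem pdM_add {A B : E n → Matrix (Fin n) (Fin n) ℝ} {z : E n}
    (hA : ∀ i j, DifferentiableAt ℝ (fun y => A y i j) z)
    (hB : ∀ i j, DifferentiableAt ℝ (fun y => B y i j) z) (k : Fin n) :
    pdM k (fun y => A y + B y) z = pdM k A z + pdM k B z := by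
  ext i j
  show fderiv ℝ (fun y => A y i j + B y i j) z (ei k) = _
  rw [((hA i j).hasFDerivAt.fun_add (hB i j).hasFDerivAt).fderiv]
  rfl

theorem pdM_sub {A B : E n → Matrix (Fin n) (Fin n) ℝ} {z : E n}
    (hA : ∀ i j, DifferentiableAt ℝ (fun y => A y i j) z)
    (hB : ∀ i j, DifferentiableAt ℝ (fun y => B y i j) z) (k : Fin n) :
    pdM k (fun y => A y - B y) z = pdM k A z - pdM k B z := by
  ext i j
  show fderiv ℝ (fun y => A y i j - B y i j) z (ei k) = _
  rw [((hA i j).hasFDerivAt.fun_sub (hB i j).hasFDerivAt).fderiv]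
  rfl

theorem pdM_const (B : Matrix (Fin n) (Fin n) ℝ) (z : E n) (k : Fin n) :
    pdM k (fun _ => B) z = 0 := by
  ext i j
  show fderiv ℝ (fun _ : E n => B i j) z (ei k) = _
  rw [fderiv_fun_const]
  rfl

end general

/-! ### the one-variable data -/

section F1

variable (P : F1)

theorem L_strictMono : StrictMono P.L :=
  strictMono_of_deriv_pos fun x => by
    rw [(P.hL x).deriv]
    exact P.L'_pos x

theorem L_cont : Continuous P.L :=
  continuous_iff_continuousAt.2 fun x => (P.hL x).continuousAt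

theorem g_mono {m m' : ℝ} (hm : 0 < m) (h : m ≤ m') : P.g m ≤ P.g m' := by
  rw [← (L_strictMono P).le_iff_le, P.L_g m hm, P.L_g m' (hm.trans_le h)]
  exact h

/-- derivative of `g = L⁻¹` -/
def g' (m : ℝ) : ℝ := (P.L' (P.g m))⁻¹

theorem hg {m : ℝ} (hm : 0 < m) : HasDerivAt P.g (g' P m) m := by
  have h1 : HasStrictDerivAt P.L (P.L' (P.g m)) (P.g m) :=
    hasStrictDerivAt_of_hasDerivAt_of_continuousAt (Eventually.of_forall P.hL)
      P.L'_cont.continuousAt
  have h2 := h1.to_local_left_inverse (P.L'_pos _).ne' (Eventually.of_forall P.g_L)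
  rw [P.L_g m hm] at h2
  exact h2.hasDerivAt

theorem g_contOn : ContinuousOn P.g (Set.Ioi 0) := fun _ hm => (hg P hm).continuousAt.continuousWithinAt

theorem g'_contOn : ContinuousOn (g' P) (Set.Ioi 0) := by
  unfold g'
  exact (P.L'_cont.comp_continuousOn (g_contOn P)).inv₀ fun m _ => (P.L'_pos _).ne'

end F1

/-! ### the field `G` -/

section G

variable {P : F1} {n : ℕ} {φ V : E n → ℝ} {a b M κ : ℝ}
  {U : E n → Matrix (Fin n) (Fin n) ℝ} {s : E n → Fin n → ℝ}

theorem Fr_orth (hF : Fr P φ U s) (z : E n) : (U z)ᵀ * U z = 1 := mul_eq_one_comm.1 (hF.orth z)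

theorem decH (hF : Fr P φ U s) (z : E n) : Dec (hess φ z) (U z) (fun i => P.L (s z i)) :=
  ⟨Fr_orth hF z, hF.dec z⟩

theorem decG (hF : Fr P φ U s) (z : E n) : Dec (GG U s z) (U z) (s z) := ⟨Fr_orth hF z, rfl⟩

theorem specH (hF : Fr P φ U s) :
    Vale.Agent.P254.S.Spec (hess φ) U (fun z i => P.L (s z i)) := ⟨hF.orth, hF.dec⟩

theorem memL (h : BP φ V a b M κ) (hF : Fr P φ U s) (z : E n) (i : Fin n) :
    P.L (s z i) ∈ Set.Icc a (max a b) := (spec_of h (specH hF)).mem z i

theorem memS (h : BP φ V a b M κ) (hF : Fr P φ U s) (z : E n) (i : Fin n) :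
    s z i ∈ Set.Icc (P.g a) (P.g (max a b)) := by
  have h1 := memL h hF z i
  have e := P.g_L (s z i)
  rw [Set.mem_Icc, ← e]
  exact ⟨g_mono P h.a_pos h1.1, g_mono P (h.a_pos.trans_le h1.1) h1.2⟩

theorem gle (h : BP φ V a b M κ) : P.g a ≤ P.g (max a b) := g_mono P h.a_pos (le_max_left _ _)

theorem spInH (h : BP φ V a b M κ) (hF : Fr P φ U s) : SpIn a (max a b) (hess φ) :=
  fun z => ⟨U z, _, decH hF z, memL h hF z⟩

theorem spInG (h : BP φ V a b M κ) (hF : Fr P φ U s) :
    SpIn (P.g a) (P.g (max a b)) (GG U s) :=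
  fun z => ⟨U z, _, decG hF z, memS h hF z⟩

/-- `G = g(D²φ)` -/
theorem GG_eq (hF : Fr P φ U s) (z : E n) : GG U s z = mf P.g (hess φ z) := by
  rw [(decH hF z).mf_eq]
  simp only [P.g_L]
  rfl

/-- `f(G)` -/
theorem fc_eq (hF : Fr P φ U s) (f : ℝ → ℝ) (z : E n) : fc U s f z = mf f (GG U s z) :=
  ((decG hF z).mf_eq f).symm

theorem fc_eqH (hF : Fr P φ U s) (f : ℝ → ℝ) (z : E n) :
    fc U s f z = mf (fun m => f (P.g m)) (hess φ z) := by
  rw [fc_eq hF, GG_eq hF, (decH hF z).mf_comp]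

theorem mblH (h : BP φ V a b M κ) (hF : Fr P φ U s) : MBL (hess φ) := mbl_hess h (specH hF)

theorem mblG (h : BP φ V a b M κ) (hF : Fr P φ U s) : MBL (GG U s) := by
  have h1 : MBL fun z => mf P.g (hess φ z) :=
    mbl_mf (le_max_left _ _) (mblH h hF) (spInH h hF) (F' := g' P)
      (fun x hx => (hg P (h.a_pos.trans_le hx.1)).hasDerivWithinAt)
      ((g'_contOn P).mono fun x hx => h.a_pos.trans_le hx.1)
  have e : GG U s = fun z => mf P.g (hess φ z) := funext fun z => GG_eq hF z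
  rw [e]
  exact h1

/-- `f(G)` is bounded and Lipschitz, `f` of class `C¹` -/
theorem mbl_fc (h : BP φ V a b M κ) (hF : Fr P φ U s) {f f' : ℝ → ℝ}
    (hf : ∀ x, HasDerivAt f (f' x) x) (hf' : Continuous f') : MBL (fc U s f) := by
  have h1 : MBL fun z => mf f (GG U s z) :=
    mbl_mf (gle h) (mblG h hF) (spInG h hF) (F' := f')
      (fun x _ => (hf x).hasDerivWithinAt) hf'.continuousOn
  have e : fc U s f = fun z => mf f (GG U s z) := funext fun z => fc_eq hF f z
  rw [e]
  exact h1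

/-- a continuous function of `G` has bounded continuous entries -/
theorem cont_fc (h : BP φ V a b M κ) (hF : Fr P φ U s) {f : ℝ → ℝ}
    (hf : Continuous f) (i j : Fin n) : Continuous fun z => fc U s f z i j := by
  -- uniform limit of polynomials
  rw [Metric.continuous_iff']
  intro z ε hε
  obtain ⟨p, hp⟩ := exists_polynomial_near_of_continuousOn (P.g a) (P.g (max a b)) f
    hf.continuousOn (ε / 3) (by positivity)
  have hb : ∀ y, |fc U s f y i j - fc U s (fun x => p.eval x) y i j| ≤ ε / 3 := by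
    intro y
    rw [fc_eq hF, fc_eq hF]
    have h1 := (decG hF y).mf_le (F := fun x => f x - p.eval x) (B := ε / 3)
      (fun k => by
        rw [abs_sub_comm]
        exact (hp _ (memS h hF y k)).le) (by positivity) i j
    rwa [(decG hF y).mf_sub, Matrix.sub_apply] at h1
  obtain ⟨K, hK⟩ := (mbl_fc h hF (f := fun x => p.eval x) (f' := fun x => (derivative p).eval x)
    (fun x => p.hasDerivAt x) (Polynomial.continuous _) i j).lipschitz
  have hc := (Metric.continuous_iff'.1 hK.continuous) z (ε / 3) (by positivity)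
  filter_upwards [hc] with y hy
  rw [Real.dist_eq] at hy ⊢
  have e : fc U s f y i j - fc U s f z i j
      = (fc U s f y i j - fc U s (fun x => p.eval x) y i j)
        + (fc U s (fun x => p.eval x) y i j - fc U s (fun x => p.eval x) z i j)
        - (fc U s f z i j - fc U s (fun x => p.eval x) z i j) := by ring
  rw [e]
  have h1 := hb y
  have h2 := hb z
  calc _ ≤ |fc U s f y i j - fc U s (fun x => p.eval x) y i j|
        + |fc U s (fun x => p.eval x) y i j - fc U s (fun x => p.eval x) z i j|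
        + |fc U s f z i j - fc U s (fun x => p.eval x) z i j| :=
        (abs_sub _ _).trans (add_le_add (abs_add_le _ _) le_rfl)
    _ < ε := by linarith

theorem bm_fc {μ : Measure (E n)} (h : BP φ V a b M κ) (hF : Fr P φ U s) {f : ℝ → ℝ}
    (hf : Continuous f) : MBM μ (fc U s f) := by
  intro i j
  obtain ⟨B, hB⟩ := isCompact_Icc.exists_bound_of_continuousOn
    (s := Set.Icc (P.g a) (P.g (max a b))) hf.continuousOn
  refine ⟨(cont_fc h hF hf i j).aestronglyMeasurable, max B 0, fun z => ?_⟩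
  show |fc U s f z i j| ≤ max B 0
  rw [fc_eq hF]
  exact (decG hF z).mf_le (fun k => (hB _ (memS h hF z k)).trans (le_max_left _ _))
    (le_max_right _ _) i j

/-- points of differentiability of `G` -/
def Good (U : E n → Matrix (Fin n) (Fin n) ℝ) (s : E n → Fin n → ℝ) (z : E n) : Prop :=
  ∀ i j, DifferentiableAt ℝ (fun y => GG U s y i j) z

theorem ae_good (h : BP φ V a b M κ) (hF : Fr P φ U s) : ∀ᵐ z ∂(gQ n), Good U s z :=
  ae_diff (mblG h hF)

/-- at a good point every `f(G)` is differentiable -/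
theorem hasFD_fc (h : BP φ V a b M κ) (hF : Fr P φ U s) {f f' : ℝ → ℝ}
    (hf : ∀ x, HasDerivAt f (f' x) x) (hf' : Continuous f') {z : E n} (hz : Good U s z)
    (i j : Fin n) :
    HasFDerivAt (fun y => fc U s f y i j)
      (DKL f f' (U z) (s z) (fun i j => fderiv ℝ (fun y => GG U s y i j) z) i j) z := by
  have h1 := hasFD_field (gle h) (spInG h hF) (F := f) (F' := f')
    (fun x _ => (hf x).hasDerivWithinAt) hf'.continuousOn hz (decG hF z) (memS h hF z) i j
  have e : (fun y => fc U s f y i j) = fun y => mf f (GG U s y) i j :=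
    funext fun y => by rw [fc_eq hF]
  rw [e]
  exact h1

theorem diff_fc (h : BP φ V a b M κ) (hF : Fr P φ U s) {f f' : ℝ → ℝ}
    (hf : ∀ x, HasDerivAt f (f' x) x) (hf' : Continuous f') {z : E n} (hz : Good U s z)
    (i j : Fin n) : DifferentiableAt ℝ (fun y => fc U s f y i j) z :=
  (hasFD_fc h hF hf hf' hz i j).differentiableAt

/-- **chain rule** `∂_k f(G) = U (f[s_i,s_j] ∘ (Uᵀ ∂_k G U)) Uᵀ` -/
theorem pdM_fc (h : BP φ V a b M κ) (hF : Fr P φ U s) {f f' : ℝ → ℝ}
    (hf : ∀ x, HasDerivAt f (f' x) x) (hf' : Continuous f') {z : E n} (hz : Good U s z)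
    (k : Fin n) : pdM k (fc U s f) z = DK f f' (U z) (s z) (pdM k (GG U s) z) := by
  ext i j
  show fderiv ℝ (fun y => fc U s f y i j) z (ei k) = _
  rw [(hasFD_fc h hF hf hf' hz i j).fderiv, DKL_apply]
  rfl

/-- the same in the frame of `G` -/
theorem frame_fc (h : BP φ V a b M κ) (hF : Fr P φ U s) {f f' : ℝ → ℝ}
    (hf : ∀ x, HasDerivAt f (f' x) x) (hf' : Continuous f') {z : E n} (hz : Good U s z)
    (k i j : Fin n) :
    ((U z)ᵀ * pdM k (fc U s f) z * U z) i j
      = Vale.Agent.P254.SP.dd f f' (s z i) (s z j) * uu U s k z i j := by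
  rw [pdM_fc h hF hf hf' hz, DK_frame (Fr_orth hF z)]
  rfl

/-- `D²φ = L(G)`: its derivative in the frame -/
theorem frame_hess (h : BP φ V a b M κ) (hF : Fr P φ U s) {z : E n} (hz : Good U s z)
    (k i j : Fin n) :
    ((U z)ᵀ * D3 φ k z * U z) i j
      = Vale.Agent.P254.SP.dd P.L P.L' (s z i) (s z j) * uu U s k z i j := by
  have h1 := frame_fc h hF P.hL P.L'_cont hz k i j
  have e : fc U s P.L = hess φ := funext fun z => (hF.dec z).symm
  rw [e] at h1
  exact h1

/-- `D²φ` is differentiable at good points -/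
theorem diff_hess (h : BP φ V a b M κ) (hF : Fr P φ U s) {z : E n} (hz : Good U s z)
    (i j : Fin n) : DifferentiableAt ℝ (fun y => hess φ y i j) z := by
  have h1 := diff_fc h hF P.hL P.L'_cont hz i j
  have e : fc U s P.L = hess φ := funext fun z => (hF.dec z).symm
  rw [e] at h1
  exact h1

/-- Frobenius norms: `|∂_k f(G)|² = ∑ (f[s_i,s_j] uu_ij)²` -/
theorem fr_pd_fc (h : BP φ V a b M κ) (hF : Fr P φ U s) {f f' : ℝ → ℝ}
    (hf : ∀ x, HasDerivAt f (f' x) x) (hf' : Continuous f') {z : E n} (hz : Good U s z)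
    (k : Fin n) :
    fr (pdM k (fc U s f) z)
      = ∑ i, ∑ j, (Vale.Agent.P254.SP.dd f f' (s z i) (s z j) * uu U s k z i j) ^ 2 := by
  rw [← fr_orth (Fr_orth hF z) (Fr_orth hF z), fr]
  refine Finset.sum_congr rfl fun i _ => Finset.sum_congr rfl fun j _ => ?_
  rw [frame_fc h hF hf hf' hz]

theorem fr_pd_GG (hF : Fr P φ U s) (z : E n) (k : Fin n) :
    fr (pdM k (GG U s) z) = ∑ i, ∑ j, uu U s k z i j ^ 2 := by
  rw [← fr_orth (Fr_orth hF z) (Fr_orth hF z), fr]
  rfl

theorem GG_symm (U : E n → Matrix (Fin n) (Fin n) ℝ) (s : E n → Fin n → ℝ) (z : E n) :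
    (GG U s z)ᵀ = GG U s z := by
  unfold GG fc
  rw [transpose_mul, transpose_mul, transpose_transpose, diagonal_transpose, Matrix.mul_assoc]

theorem pdG_symm (U : E n → Matrix (Fin n) (Fin n) ℝ) (s : E n → Fin n → ℝ) (k : Fin n) (z : E n) :
    (pdM k (GG U s) z)ᵀ = pdM k (GG U s) z := by
  ext i j
  show pd k (fun y => GG U s y j i) z = pd k (fun y => GG U s y i j) z
  congr 1
  funext y
  have := congrFun (congrFun (GG_symm U s y) i) j
  exact this

theorem uu_symm (U : E n → Matrix (Fin n) (Fin n) ℝ) (s : E n → Fin n → ℝ) (k : Fin n) (z : E n) :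
    (uu U s k z)ᵀ = uu U s k z := by
  unfold Vale.Agent.P254.SP.uu
  have h1 := pdG_symm U s k z
  have h2 : ((U z).transpose * pdM k (GG U s) z * U z)ᵀ
      = (U z).transpose * (pdM k (GG U s) z)ᵀ * U z := by
    rw [transpose_mul, transpose_mul, transpose_transpose, Matrix.mul_assoc]
  rw [h2, h1]

/-! ### one-sided forms -/

/-- `K^f_k = ∂_k f(G) - f'(G) ∂_k G` -/
def Kf (U : E n → Matrix (Fin n) (Fin n) ℝ) (s : E n → Fin n → ℝ) (f f' : ℝ → ℝ) (k : Fin n)
    (z : E n) : Matrix (Fin n) (Fin n) ℝ :=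
  pdM k (fc U s f) z - fc U s f' z * pdM k (GG U s) z

theorem pdM_fc_eq (U : E n → Matrix (Fin n) (Fin n) ℝ) (s : E n → Fin n → ℝ) (f f' : ℝ → ℝ)
    (k : Fin n) (z : E n) :
    pdM k (fc U s f) z = fc U s f' z * pdM k (GG U s) z + Kf U s f f' k z := by
  unfold Kf
  abel

theorem frame_Kf (h : BP φ V a b M κ) (hF : Fr P φ U s) {f f' : ℝ → ℝ}
    (hf : ∀ x, HasDerivAt f (f' x) x) (hf' : Continuous f') {z : E n} (hz : Good U s z)
    (k i j : Fin n) :
    ((U z)ᵀ * Kf U s f f' k z * U z) i j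
      = (Vale.Agent.P254.SP.dd f f' (s z i) (s z j) - f' (s z i)) * uu U s k z i j := by
  unfold Kf
  rw [Matrix.mul_sub, Matrix.sub_mul, Matrix.sub_apply, frame_fc h hF hf hf' hz]
  have h1 : (U z)ᵀ * (fc U s f' z * pdM k (GG U s) z) * U z
      = diagonal (fun i => f' (s z i)) * uu U s k z := by
    unfold fc Vale.Agent.P254.SP.uu
    calc (U z)ᵀ * (U z * diagonal (fun i => f' (s z i)) * (U z)ᵀ * pdM k (GG U s) z) * U z
        = ((U z)ᵀ * U z) * diagonal (fun i => f' (s z i)) *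
            ((U z)ᵀ * pdM k (GG U s) z * U z) := by simp only [Matrix.mul_assoc]
      _ = _ := by rw [Fr_orth hF z, Matrix.one_mul]
  rw [h1, diagonal_mul]
  ring

theorem fr_Kf (h : BP φ V a b M κ) (hF : Fr P φ U s) {f f' : ℝ → ℝ}
    (hf : ∀ x, HasDerivAt f (f' x) x) (hf' : Continuous f') {z : E n} (hz : Good U s z)
    (k : Fin n) :
    fr (Kf U s f f' k z) = ∑ i, ∑ j,
      ((Vale.Agent.P254.SP.dd f f' (s z i) (s z j) - f' (s z i)) * uu U s k z i j) ^ 2 := by
  rw [← fr_orth (Fr_orth hF z) (Fr_orth hF z), fr]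
  refine Finset.sum_congr rfl fun i _ => Finset.sum_congr rfl fun j _ => ?_
  rw [frame_Kf h hF hf hf' hz]

/-- `f(G) h(G) = (f h)(G)` -/
theorem fc_mul (hF : Fr P φ U s) (f h : ℝ → ℝ) (z : E n) :
    fc U s f z * fc U s h z = fc U s (fun x => f x * h x) z := by
  rw [fc_eq hF, fc_eq hF, fc_eq hF, (decG hF z).mf_mul]

theorem fc_add (hF : Fr P φ U s) (f h : ℝ → ℝ) (z : E n) :
    fc U s f z + fc U s h z = fc U s (fun x => f x + h x) z := by
  rw [fc_eq hF, fc_eq hF, fc_eq hF, (decG hF z).mf_add]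

theorem fc_sub (hF : Fr P φ U s) (f h : ℝ → ℝ) (z : E n) :
    fc U s f z - fc U s h z = fc U s (fun x => f x - h x) z := by
  rw [fc_eq hF, fc_eq hF, fc_eq hF, (decG hF z).mf_sub]

theorem fc_const (hF : Fr P φ U s) (r : ℝ) (z : E n) :
    fc U s (fun _ => r) z = r • (1 : Matrix (Fin n) (Fin n) ℝ) := by
  rw [fc_eq hF, (decG hF z).mf_const]

theorem fc_trace (hF : Fr P φ U s) (f : ℝ → ℝ) (z : E n) :
    (fc U s f z).trace = ∑ i, f (s z i) := by
  rw [fc_eq hF, (decG hF z).mf_trace]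

theorem fc_symm (hF : Fr P φ U s) (f : ℝ → ℝ) (z : E n) : (fc U s f z)ᵀ = fc U s f z := by
  rw [fc_eq hF, (decG hF z).mf_symm]

/-- `|f(G) X|_HS ≤ sup |f| |X|_HS` -/
theorem fr_fc_mul_le (hF : Fr P φ U s) {f : ℝ → ℝ} {B : ℝ} (hB : ∀ x, |f x| ≤ B) (z : E n)
    (X : Matrix (Fin n) (Fin n) ℝ) : fr (fc U s f z * X) ≤ B ^ 2 * fr X := by
  have h1 : (U z)ᵀ * (fc U s f z * X) * 1 = diagonal (fun i => f (s z i)) * ((U z)ᵀ * X * 1) := by
    unfold fc
    simp only [Matrix.mul_one]
    calc (U z)ᵀ * (U z * diagonal (fun i => f (s z i)) * (U z)ᵀ * X)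
        = ((U z)ᵀ * U z) * diagonal (fun i => f (s z i)) * ((U z)ᵀ * X) := by
          simp only [Matrix.mul_assoc]
      _ = _ := by rw [Fr_orth hF z, Matrix.one_mul]
  have h2 : (1 : Matrix (Fin n) (Fin n) ℝ)ᵀ * 1 = 1 := by simp
  rw [← fr_orth (Fr_orth hF z) h2 (fc U s f z * X), h1, ← fr_orth (Fr_orth hF z) h2 X, fr, fr,
    Finset.mul_sum]
  refine Finset.sum_le_sum fun i _ => ?_
  rw [Finset.mul_sum]
  refine Finset.sum_le_sum fun j _ => ?_
  rw [diagonal_mul, mul_pow]
  refine mul_le_mul_of_nonneg_right ?_ (sq_nonneg _)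
  rw [← sq_abs (f (s z i))]
  exact pow_le_pow_left₀ (abs_nonneg _) (hB _) 2

/-- measurability and boundedness of `∂_k f(G)` -/
theorem mbm_pd_fc {μ : Measure (E n)} (h : BP φ V a b M κ) (hF : Fr P φ U s) {f f' : ℝ → ℝ}
    (hf : ∀ x, HasDerivAt f (f' x) x) (hf' : Continuous f') (k : Fin n) :
    MBM μ (pdM k (fc U s f)) := mbm_DA (mbl_fc h hF hf hf') k

theorem mbm_pd_GG {μ : Measure (E n)} (h : BP φ V a b M κ) (hF : Fr P φ U s) (k : Fin n) :
    MBM μ (pdM k (GG U s)) := mbm_DA (mblG h hF) k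

/-- existence of a frame -/
theorem exists_Fr (P : F1) (h : BP φ V a b M κ) : ∃ U s, Fr P φ U s := by
  have h1 : ∀ z, ∃ U m, Dec (hess φ z) U m ∧ ∀ i, 0 < m i := by
    intro z
    have hs : (hess φ z)ᵀ = hess φ z := by
      ext i j
      exact Vale.Agent.P227.M.hess_symm h.C2 z j i
    obtain ⟨U, m, hd⟩ := exists_dec hs
    refine ⟨U, m, hd, fun k => ?_⟩
    have hS : Vale.Agent.P254.S.Spec (fun _ : E n => hess φ z) (fun _ => U) (fun _ => m) :=
      ⟨fun _ => hd.orth', fun _ => hd.eq⟩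
    set v : E n := WithLp.toLp 2 (fun i => U i k) with hv
    have hvi : ∀ i, v i = U i k := fun i => rfl
    have hv1 : ‖v‖ ^ 2 = 1 := by
      rw [norm_sq_eq_sum]
      have h := congrFun (congrFun hd.orth k) k
      rw [Matrix.mul_apply, one_apply_eq] at h
      rw [← h]
      refine Finset.sum_congr rfl fun i _ => ?_
      rw [hvi, transpose_apply]
      ring
    have hv2 : qf (hess φ z) v = m k := by
      have e : Uᵀ * hess φ z * U = diagonal m := by
        rw [hd.eq]
        calc Uᵀ * (U * diagonal m * Uᵀ) * U = (Uᵀ * U) * diagonal m * (Uᵀ * U) := by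
              simp only [Matrix.mul_assoc]
          _ = _ := by rw [hd.orth, Matrix.one_mul, Matrix.mul_one]
      have h := congrFun (congrFun e k) k
      rw [diagonal_apply_eq] at h
      rw [← h, Matrix.mul_apply]
      unfold qf
      rw [Finset.sum_comm]
      refine Finset.sum_congr rfl fun j _ => ?_
      rw [Matrix.mul_apply, Finset.sum_mul]
      refine Finset.sum_congr rfl fun i _ => ?_
      rw [hvi, hvi, transpose_apply]
      ring
    have h3 := h.lower z v
    rw [hv1, hv2, mul_one] at h3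
    exact h.a_pos.trans_le h3
  choose U m hd hm using h1
  refine ⟨U, fun z i => P.g (m z i), ⟨fun z => (hd z).orth', fun z => ?_⟩⟩
  unfold fc
  simp only [P.L_g _ (hm z _)]
  exact (hd z).eq

end G

end Vale.Agent.P254.SP620
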