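import Vale.Agent.P254.SP.IfaceB
import Vale.Agent.P254.SP.H620.Field

/-!
# P254, block SP: `StmtDK` (helper620)
-/

open MeasureTheory Matrix Finset Polynomial Filter Topology

noncomputable section

namespace Vale.Agent.P254.SP620

open Vale.Agent.P254.S130 Vale.Agent.P227.M Vale.Agent.P254.S
open Vale.Agent.P254.SP (F1 Fr GG pdM uu wσ Dat StmtDK)

variable {P : F1} {n : ℕ} {φ V : E n → ℝ} {a b M κ : ℝ}
  {U : E n → Matrix (Fin n) (Fin n) ℝ} {s : E n → Fin n → ℝ}

theorem ae_good_vol (h : BP φ V a b M κ) (hF : Fr P φ U s) :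
    ∀ᵐ z ∂(volume : Measure (E n)), Good U s z := by
  unfold Good
  rw [ae_all_iff]
  intro i
  rw [ae_all_iff]
  intro j
  obtain ⟨K, hK⟩ := (mblG h hF i j).lipschitz
  exact hK.ae_differentiableAt

theorem stmtDK : StmtDK := by
  intro P n φ V a b M κ U s hD f f' hf hf'
  have h := hD.bp
  have hF := hD.fr
  have h1 := mbl_fc h hF hf hf'
  refine ⟨?_, fun k => ?_⟩
  · choose B hB using fun i j => (h1 i j).1
    choose K hK using fun i j => (h1 i j).lipschitz
    refine ⟨(∑ i, ∑ j, K i j) + Real.toNNReal (∑ i, ∑ j, |B i j|), fun i j => ⟨?_, fun z => ?_⟩⟩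
    · refine (hK i j).weaken ?_
      have e : K i j ≤ ∑ i, ∑ j, K i j :=
        (Finset.single_le_sum (f := fun j => K i j) (fun _ _ => bot_le) (Finset.mem_univ j)).trans
          (Finset.single_le_sum (f := fun i => ∑ j, K i j) (fun _ _ => bot_le)
            (Finset.mem_univ i))
      exact e.trans le_self_add
    · have e : |B i j| ≤ ∑ i, ∑ j, |B i j| :=
        (Finset.single_le_sum (f := fun j => |B i j|) (fun _ _ => abs_nonneg _)
          (Finset.mem_univ j)).trans
          (Finset.single_le_sum (f := fun i => ∑ j, |B i j|)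
            (fun _ _ => Finset.sum_nonneg fun _ _ => abs_nonneg _) (Finset.mem_univ i))
      calc |fc U s f z i j| ≤ B i j := hB i j z
        _ ≤ |B i j| := le_abs_self _
        _ ≤ _ := e
        _ ≤ _ := by
          rw [NNReal.coe_add]
          exact (Real.le_coe_toNNReal _).trans (le_add_of_nonneg_left (NNReal.coe_nonneg _))
  · filter_upwards [ae_good_vol h hF] with z hz
    refine ⟨fun i j => diff_fc h hF hf hf' hz i j, ?_⟩
    rw [pdM_fc h hF hf hf' hz]
    rfl

end Vale.Agent.P254.SP620
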